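import Vale.Agent.H34.P125.Defs

/-!
# P125: the coordinate-flip walk on a discrete cube and Markov type

A second, independent route to the inequality of `Vale.Agent.H34.P125.main_ineq`
(same definition `Vale.Agent.H34.P125.MarkovType`, the problem file's).

Markov type is applied (with `t = 2`) to the walk on `ι → Bool` that flips one
uniformly chosen coordinate, and to `f ε = ∑ k, (± 1) • v k`.
-/

namespace Vale.Agent.H67.P125

open Finset

open Vale.Agent.H34.P125 (MarkovType)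

section Cube

variable {ι : Type} [DecidableEq ι]

/-- Flip the coordinate `i`. -/
def flip (i : ι) (ε : ι → Bool) : ι → Bool := Function.update ε i (!ε i)

lemma flip_apply_self (i : ι) (ε : ι → Bool) : flip i ε i = !ε i := by
  simp [flip]

lemma flip_apply_of_ne {i j : ι} (h : j ≠ i) (ε : ι → Bool) : flip i ε j = ε j := by
  simp [flip, h]

lemma flip_flip (i : ι) (ε : ι → Bool) : flip i (flip i ε) = ε := by
  funext j
  by_cases h : j = i
  · subst h
    rw [flip_apply_self, flip_apply_self, Bool.not_not]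
  · rw [flip_apply_of_ne h, flip_apply_of_ne h]

/-- `flip i` as a permutation of the cube. -/
def flipEquiv (i : ι) : (ι → Bool) ≃ (ι → Bool) where
  toFun := flip i
  invFun := flip i
  left_inv := flip_flip i
  right_inv := flip_flip i

/-- The sign `± 1` of a bit. -/
def sgn (b : Bool) : ℝ := if b then 1 else -1

lemma sgn_not (b : Bool) : sgn (!b) = - sgn b := by
  cases b <;> simp [sgn]

lemma abs_sgn (b : Bool) : |sgn b| = 1 := by
  cases b <;> simp [sgn]

variable [Fintype ι]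

/-- Transition matrix of the walk that flips one uniformly chosen coordinate. -/
noncomputable def walk (ι : Type) [Fintype ι] [DecidableEq ι] :
    Matrix (ι → Bool) (ι → Bool) ℝ :=
  fun ε ε' => (1 / (Fintype.card ι : ℝ)) * ∑ i : ι, if ε' = flip i ε then (1 : ℝ) else 0

lemma walk_nonneg (ε ε' : ι → Bool) : 0 ≤ walk ι ε ε' := by
  unfold walk
  apply mul_nonneg
  · positivity
  · exact Finset.sum_nonneg fun i _ => by split_ifs <;> norm_num

lemma walk_symm (ε ε' : ι → Bool) : walk ι ε ε' = walk ι ε' ε := by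
  unfold walk
  congr 1
  refine Finset.sum_congr rfl fun i _ => ?_
  have : (ε' = flip i ε) ↔ (ε = flip i ε') := by
    constructor
    · intro h; rw [h, flip_flip]
    · intro h; rw [h, flip_flip]
  simp only [this]

lemma walk_sum (ε : ι → Bool) (G : (ι → Bool) → ℝ) :
    ∑ ε', walk ι ε ε' * G ε' = (1 / (Fintype.card ι : ℝ)) * ∑ i, G (flip i ε) := by
  unfold walk
  simp_rw [mul_assoc, ← Finset.mul_sum, Finset.sum_mul]
  rw [Finset.sum_comm]
  congr 1
  refine Finset.sum_congr rfl fun i _ => ?_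
  simp [ite_mul]

lemma walk_row_sum [Nonempty ι] (ε : ι → Bool) : ∑ ε', walk ι ε ε' = 1 := by
  have h := walk_sum ε (fun _ => (1 : ℝ))
  simp only [mul_one] at h
  rw [h]
  have hn : (Fintype.card ι : ℝ) ≠ 0 := by
    exact_mod_cast Fintype.card_ne_zero
  simp [hn]

lemma walk_sq_sum (ε : ι → Bool) (G : (ι → Bool) → ℝ) :
    ∑ ε'', (walk ι ^ 2) ε ε'' * G ε'' =
      (1 / (Fintype.card ι : ℝ)) *
        ∑ i, (1 / (Fintype.card ι : ℝ)) * ∑ j, G (flip j (flip i ε)) := by
  have h1 : ∀ ε'', (walk ι ^ 2) ε ε'' = ∑ ε', walk ι ε ε' * walk ι ε' ε'' := by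
    intro ε''
    rw [pow_two, Matrix.mul_apply]
  calc ∑ ε'', (walk ι ^ 2) ε ε'' * G ε''
      = ∑ ε'', ∑ ε', walk ι ε ε' * (walk ι ε' ε'' * G ε'') := by
        refine Finset.sum_congr rfl fun ε'' _ => ?_
        rw [h1, Finset.sum_mul]
        refine Finset.sum_congr rfl fun ε' _ => ?_
        ring
    _ = ∑ ε', walk ι ε ε' * ∑ ε'', walk ι ε' ε'' * G ε'' := by
        rw [Finset.sum_comm]
        refine Finset.sum_congr rfl fun ε' _ => ?_
        rw [Finset.mul_sum]
    _ = ∑ ε', walk ι ε ε' * ((1 / (Fintype.card ι : ℝ)) * ∑ j, G (flip j ε')) := by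
        refine Finset.sum_congr rfl fun ε' _ => ?_
        rw [walk_sum]
    _ = _ := walk_sum ε (fun ε' => (1 / (Fintype.card ι : ℝ)) * ∑ j, G (flip j ε'))

end Cube

section Embedding

variable {ι : Type} [DecidableEq ι] [Fintype ι]
variable {X : Type*} [NormedAddCommGroup X] [NormedSpace ℝ X]

/-- The map `ε ↦ ∑ k, (± 1) • v k` of the cube into `X`. -/
noncomputable def emb (v : ι → X) (ε : ι → Bool) : X := ∑ k, sgn (ε k) • v k

lemma emb_sub_flip (v : ι → X) (i : ι) (ε : ι → Bool) :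
    emb v ε - emb v (flip i ε) = (2 * sgn (ε i)) • v i := by
  unfold emb
  rw [← Finset.sum_sub_distrib, Finset.sum_eq_single i]
  · rw [flip_apply_self, sgn_not, ← sub_smul]
    congr 1
    ring
  · intro k _ hk
    rw [flip_apply_of_ne hk, sub_self]
  · intro h
    exact absurd (Finset.mem_univ i) h

lemma norm_two_sgn_smul (b : Bool) (w : X) : ‖(2 * sgn b) • w‖ = 2 * ‖w‖ := by
  rw [norm_smul, Real.norm_eq_abs, abs_mul, abs_sgn]
  norm_num

/-- One step of the walk moves `emb v` by `± 2 • v i`. -/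
lemma step_one (p : ℝ) (v : ι → X) (i : ι) (ε : ι → Bool) :
    ‖emb v ε - emb v (flip i ε)‖ ^ p = 2 ^ p * ‖v i‖ ^ p := by
  rw [emb_sub_flip, norm_two_sgn_smul, Real.mul_rpow (by norm_num) (norm_nonneg _)]

/-- Two steps of the walk (first `i`, then `j`). -/
lemma step_two {p : ℝ} (hp : 0 < p) (v : ι → X) (i j : ι) (ε : ι → Bool) :
    ‖emb v ε - emb v (flip j (flip i ε))‖ ^ p =
      if i = j then 0 else 2 ^ p * ‖sgn (ε i) • v i + sgn (ε j) • v j‖ ^ p := by
  have h : emb v ε - emb v (flip j (flip i ε)) =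
      (2 * sgn (ε i)) • v i + (2 * sgn (flip i ε j)) • v j := by
    rw [← emb_sub_flip v i ε, ← emb_sub_flip v j (flip i ε)]
    abel
  rw [h]
  split_ifs with hij
  · subst hij
    rw [flip_apply_self, sgn_not, ← add_smul]
    have : 2 * sgn (ε i) + 2 * -sgn (ε i) = 0 := by ring
    rw [this, zero_smul, norm_zero, Real.zero_rpow hp.ne']
  · rw [flip_apply_of_ne (Ne.symm hij)]
    have : (2 * sgn (ε i)) • v i + (2 * sgn (ε j)) • v j =
        (2 : ℝ) • (sgn (ε i) • v i + sgn (ε j) • v j) := by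
      rw [smul_add, smul_smul, smul_smul]
    rw [this, norm_smul, Real.norm_eq_abs, abs_of_pos (by norm_num : (0 : ℝ) < 2),
      Real.mul_rpow (by norm_num) (norm_nonneg _)]

lemma pair_sum (p : ℝ) (a b : Bool) (u w : X) :
    ‖sgn a • u + sgn b • w‖ ^ p + ‖sgn (!a) • u + sgn b • w‖ ^ p =
      ‖u + w‖ ^ p + ‖u - w‖ ^ p := by
  have h1 : ‖w + -u‖ = ‖u - w‖ := by rw [← sub_eq_add_neg, norm_sub_rev]
  have h2 : ‖-u + -w‖ = ‖u + w‖ := by rw [← neg_add, norm_neg]
  have h3 : ‖u + -w‖ = ‖u - w‖ := by rw [sub_eq_add_neg]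
  cases a <;> cases b <;> simp [sgn, h1, h2, h3, add_comm]

/-- Averaging over the cube: the signs of two different coordinates are independent. -/
lemma sum_pair (p : ℝ) (v : ι → X) {i j : ι} (hij : i ≠ j) :
    ∑ ε : ι → Bool, ‖sgn (ε i) • v i + sgn (ε j) • v j‖ ^ p =
      (Fintype.card (ι → Bool) : ℝ) / 2 * (‖v i + v j‖ ^ p + ‖v i - v j‖ ^ p) := by
  set H : (ι → Bool) → ℝ := fun ε => ‖sgn (ε i) • v i + sgn (ε j) • v j‖ ^ p with hH
  have h1 : ∑ ε, H (flip i ε) = ∑ ε, H ε := Equiv.sum_comp (flipEquiv i) H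
  have h2 : ∀ ε, H ε + H (flip i ε) = ‖v i + v j‖ ^ p + ‖v i - v j‖ ^ p := by
    intro ε
    simp only [hH]
    rw [flip_apply_self, flip_apply_of_ne (Ne.symm hij)]
    exact pair_sum p (ε i) (ε j) (v i) (v j)
  have h3 : ∑ ε, (H ε + H (flip i ε)) =
      (Fintype.card (ι → Bool) : ℝ) * (‖v i + v j‖ ^ p + ‖v i - v j‖ ^ p) := by
    simp_rw [h2]
    rw [Finset.sum_const, Finset.card_univ, nsmul_eq_mul]
  rw [Finset.sum_add_distrib, h1] at h3
  linarith

end Embedding

section Energy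

variable {ι : Type} [DecidableEq ι] [Fintype ι] [Nonempty ι]
variable {X : Type*} [NormedAddCommGroup X] [NormedSpace ℝ X]

/-- The one-step energy of `emb v` for the stationary walk on the cube. -/
lemma energy_one (p : ℝ) (v : ι → X) :
    ∑ ε : ι → Bool, ∑ ε' : ι → Bool,
        (1 / (Fintype.card (ι → Bool) : ℝ)) * walk ι ε ε' * ‖emb v ε - emb v ε'‖ ^ p =
      2 ^ p / (Fintype.card ι : ℝ) * ∑ i, ‖v i‖ ^ p := by
  have hN : (Fintype.card (ι → Bool) : ℝ) ≠ 0 := by exact_mod_cast Fintype.card_ne_zero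
  have h1 : ∀ ε : ι → Bool, ∑ ε' : ι → Bool,
      (1 / (Fintype.card (ι → Bool) : ℝ)) * walk ι ε ε' * ‖emb v ε - emb v ε'‖ ^ p =
      (1 / (Fintype.card (ι → Bool) : ℝ)) *
        (2 ^ p / (Fintype.card ι : ℝ) * ∑ i, ‖v i‖ ^ p) := by
    intro ε
    simp_rw [mul_assoc]
    rw [← Finset.mul_sum, walk_sum ε (fun ε' => ‖emb v ε - emb v ε'‖ ^ p)]
    simp_rw [step_one]
    rw [← Finset.mul_sum]
    ring
  simp_rw [h1]
  rw [Finset.sum_const, Finset.card_univ, nsmul_eq_mul]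
  field_simp

/-- The two-step energy of `emb v` for the stationary walk on the cube. -/
lemma energy_two {p : ℝ} (hp : 0 < p) (v : ι → X) :
    ∑ ε : ι → Bool, ∑ ε' : ι → Bool,
        (1 / (Fintype.card (ι → Bool) : ℝ)) * (walk ι ^ 2) ε ε' * ‖emb v ε - emb v ε'‖ ^ p =
      2 ^ p / (2 * (Fintype.card ι : ℝ) ^ 2) *
        ∑ i, ∑ j, (if i = j then 0 else ‖v i + v j‖ ^ p + ‖v i - v j‖ ^ p) := by
  have hN : (Fintype.card (ι → Bool) : ℝ) ≠ 0 := by exact_mod_cast Fintype.card_ne_zero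
  have hn : (Fintype.card ι : ℝ) ≠ 0 := by exact_mod_cast Fintype.card_ne_zero
  have h1 : ∀ ε : ι → Bool, ∑ ε' : ι → Bool,
      (1 / (Fintype.card (ι → Bool) : ℝ)) * (walk ι ^ 2) ε ε' * ‖emb v ε - emb v ε'‖ ^ p =
      (1 / (Fintype.card (ι → Bool) : ℝ)) * (1 / (Fintype.card ι : ℝ) ^ 2) *
        ∑ i, ∑ j, (if i = j then 0 else
          2 ^ p * ‖sgn (ε i) • v i + sgn (ε j) • v j‖ ^ p) := by
    intro ε
    simp_rw [mul_assoc]
    rw [← Finset.mul_sum, walk_sq_sum ε (fun ε' => ‖emb v ε - emb v ε'‖ ^ p)]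
    simp_rw [step_two hp]
    simp_rw [← Finset.mul_sum]
    ring
  simp_rw [h1]
  rw [← Finset.mul_sum]
  have h2 : ∑ ε : ι → Bool, ∑ i, ∑ j, (if i = j then 0 else
        2 ^ p * ‖sgn (ε i) • v i + sgn (ε j) • v j‖ ^ p) =
      ∑ i, ∑ j, (if i = j then 0 else
        2 ^ p * ((Fintype.card (ι → Bool) : ℝ) / 2 *
          (‖v i + v j‖ ^ p + ‖v i - v j‖ ^ p))) := by
    rw [Finset.sum_comm]
    refine Finset.sum_congr rfl fun i _ => ?_
    rw [Finset.sum_comm]
    refine Finset.sum_congr rfl fun j _ => ?_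
    split_ifs with hij
    · simp
    · rw [← Finset.mul_sum, sum_pair p v hij]
  rw [h2]
  have h3 : ∀ i j : ι, (if i = j then (0 : ℝ) else
      2 ^ p * ((Fintype.card (ι → Bool) : ℝ) / 2 *
        (‖v i + v j‖ ^ p + ‖v i - v j‖ ^ p))) =
      (2 ^ p * ((Fintype.card (ι → Bool) : ℝ) / 2)) *
        (if i = j then 0 else ‖v i + v j‖ ^ p + ‖v i - v j‖ ^ p) := by
    intro i j
    split_ifs <;> ring
  simp_rw [h3, ← Finset.mul_sum]
  field_simp

/-- Markov type `p` with constant `K`, tested at time `2` on the cube walk: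
for every finite family `v` of vectors,
`∑_{i ≠ j} (‖v i + v j‖ ^ p + ‖v i - v j‖ ^ p) ≤ 4 K ^ p n ∑ i, ‖v i‖ ^ p`. -/
theorem cube_ineq {p K : ℝ} (hp : 0 < p) (h : MarkovType X p K) (v : ι → X) :
    ∑ i, ∑ j, (if i = j then 0 else ‖v i + v j‖ ^ p + ‖v i - v j‖ ^ p) ≤
      4 * K ^ p * (Fintype.card ι : ℝ) * ∑ i, ‖v i‖ ^ p := by
  have hN : (0 : ℝ) < (Fintype.card (ι → Bool) : ℝ) := by exact_mod_cast Fintype.card_pos
  have hn : (0 : ℝ) < (Fintype.card ι : ℝ) := by exact_mod_cast Fintype.card_pos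
  have h2p : (0 : ℝ) < 2 ^ p := Real.rpow_pos_of_pos (by norm_num) p
  have key := h (ι → Bool) (fun _ => 1 / (Fintype.card (ι → Bool) : ℝ)) (walk ι)
    (fun _ => by positivity)
    (by rw [Finset.sum_const, Finset.card_univ, nsmul_eq_mul]; field_simp)
    walk_nonneg walk_row_sum
    (fun ε ε' => by rw [walk_symm])
    (emb v) 2 (by norm_num)
  rw [energy_one, energy_two hp] at key
  set T := ∑ i, ∑ j, (if i = j then 0 else ‖v i + v j‖ ^ p + ‖v i - v j‖ ^ p) with hT
  set W := ∑ i, ‖v i‖ ^ p with hW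
  have e1 : T = (2 * (Fintype.card ι : ℝ) ^ 2 / 2 ^ p) *
      (2 ^ p / (2 * (Fintype.card ι : ℝ) ^ 2) * T) := by
    field_simp
  rw [e1]
  calc (2 * (Fintype.card ι : ℝ) ^ 2 / 2 ^ p) *
        (2 ^ p / (2 * (Fintype.card ι : ℝ) ^ 2) * T)
      ≤ (2 * (Fintype.card ι : ℝ) ^ 2 / 2 ^ p) *
        (K ^ p * ((2 : ℕ) : ℝ) * (2 ^ p / (Fintype.card ι : ℝ) * W)) :=
        mul_le_mul_of_nonneg_left key (by positivity)
    _ = 4 * K ^ p * (Fintype.card ι : ℝ) * W := by
        push_cast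
        field_simp
        ring

end Energy

end Vale.Agent.H67.P125
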