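import Vale.Agent.H67.P125.Cube

/-!
# P125: Markov type with a small constant forces uniform non-squareness

From `cube_ineq` (Markov type at time `2` on the cube walk) applied to two
blocks of `m` equal vectors, and `m → ∞`:
`‖x + y‖ ^ p + ‖x - y‖ ^ p ≤ (4 K ^ p - 2 ^ (p - 1)) (‖x‖ ^ p + ‖y‖ ^ p)`.
-/

namespace Vale.Agent.H67.P125

open Finset

open Vale.Agent.H34.P125 (MarkovType)

variable {X : Type*} [NormedAddCommGroup X] [NormedSpace ℝ X]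

lemma sum_offdiag_const (m : ℕ) (c : ℝ) :
    ∑ a : Fin m, ∑ b : Fin m, (if a = b then (0 : ℝ) else c) = ((m : ℝ) ^ 2 - m) * c := by
  have h : ∀ a b : Fin m, (if a = b then (0 : ℝ) else c) = c - (if a = b then c else 0) := by
    intro a b
    split_ifs <;> simp
  simp_rw [h, Finset.sum_sub_distrib, Finset.sum_ite_eq, Finset.mem_univ, if_true,
    Finset.sum_const, Finset.card_univ, Fintype.card_fin, nsmul_eq_mul]
  ring

/-- Two blocks of `m` equal vectors in `cube_ineq`. -/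
lemma block_ineq {p K : ℝ} (hp : 0 < p) (h : MarkovType X p K) (x y : X) (m : ℕ)
    (hm : 1 ≤ m) :
    ((m : ℝ) ^ 2 - m) * (2 ^ p * (‖x‖ ^ p + ‖y‖ ^ p)) +
        2 * (m : ℝ) ^ 2 * (‖x + y‖ ^ p + ‖x - y‖ ^ p) ≤
      8 * K ^ p * (m : ℝ) ^ 2 * (‖x‖ ^ p + ‖y‖ ^ p) := by
  have : Nonempty (Fin m ⊕ Fin m) := ⟨Sum.inl ⟨0, hm⟩⟩
  have key := cube_ineq hp h (Sum.elim (fun _ : Fin m => x) (fun _ : Fin m => y))
  have hdouble : ∀ z : X, ‖z + z‖ ^ p + ‖z - z‖ ^ p = 2 ^ p * ‖z‖ ^ p := by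
    intro z
    rw [sub_self, norm_zero, Real.zero_rpow hp.ne', add_zero, ← two_smul ℝ z, norm_smul,
      Real.norm_eq_abs, abs_of_pos (by norm_num : (0 : ℝ) < 2),
      Real.mul_rpow (by norm_num) (norm_nonneg _)]
  have hyx : ‖y + x‖ ^ p + ‖y - x‖ ^ p = ‖x + y‖ ^ p + ‖x - y‖ ^ p := by
    rw [add_comm y x, norm_sub_rev y x]
  simp only [Fintype.sum_sum_type, Sum.elim_inl, Sum.elim_inr, Sum.inl.injEq, Sum.inr.injEq,
    reduceCtorEq, if_false, Fintype.card_sum, Fintype.card_fin, hdouble, hyx,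
    Finset.sum_add_distrib] at key
  rw [sum_offdiag_const, sum_offdiag_const] at key
  simp only [Finset.sum_const, Finset.card_univ, Fintype.card_fin, nsmul_eq_mul] at key
  push_cast at key
  nlinarith [key]

lemma le_of_forall_nat_div {a b c : ℝ}
    (h : ∀ m : ℕ, 1 ≤ m → a ≤ b + c / m) : a ≤ b := by
  by_contra hab
  have hab' : 0 < a - b := by linarith [not_le.mp hab]
  obtain ⟨m, hm⟩ := exists_nat_gt (c / (a - b))
  have h1 := h (m + 1) (by omega)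
  have hmpos : (0 : ℝ) < ((m + 1 : ℕ) : ℝ) := by positivity
  have h2 : c / ((m + 1 : ℕ) : ℝ) < a - b := by
    rw [div_lt_iff₀ hmpos]
    have h3 : c < (m : ℝ) * (a - b) := by rwa [div_lt_iff₀ hab'] at hm
    push_cast
    nlinarith
  linarith

/-- **Main inequality.** If `X` has Markov type `p` with constant `K`, then for all `x y`,
`‖x + y‖ ^ p + ‖x - y‖ ^ p ≤ (4 K ^ p - 2 ^ (p - 1)) (‖x‖ ^ p + ‖y‖ ^ p)`. -/
theorem markov_type_parallelogram {p K : ℝ} (hp : 0 < p) (h : MarkovType X p K) (x y : X) :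
    ‖x + y‖ ^ p + ‖x - y‖ ^ p ≤ (4 * K ^ p - 2 ^ (p - 1)) * (‖x‖ ^ p + ‖y‖ ^ p) := by
  set A := ‖x‖ ^ p + ‖y‖ ^ p with hA
  set S := ‖x + y‖ ^ p + ‖x - y‖ ^ p with hS
  have h2 : (2 : ℝ) ^ (p - 1) = 2 ^ p / 2 := by rw [Real.rpow_sub_one (by norm_num)]
  apply le_of_forall_nat_div (c := 2 ^ (p - 1) * A)
  intro m hm
  have key := block_ineq hp h x y m hm
  have hm0 : (0 : ℝ) < m := by exact_mod_cast hm
  rw [h2]
  have e1 : S = (2 * (m : ℝ) ^ 2 * S) / (2 * (m : ℝ) ^ 2) := by field_simp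
  rw [e1, div_le_iff₀ (by positivity)]
  have e2 : ((4 * K ^ p - 2 ^ p / 2) * A + 2 ^ p / 2 * A / m) * (2 * (m : ℝ) ^ 2) =
      8 * K ^ p * (m : ℝ) ^ 2 * A - ((m : ℝ) ^ 2 - m) * (2 ^ p * A) := by
    field_simp
    ring
  rw [e2]
  linarith

/-- **Uniform non-squareness.** If the Markov type `p` constant `K` of `X` satisfies
`4 K ^ p - 2 ^ (p - 1) < 2 ^ p`, then `X` is uniformly non-square. -/
theorem uniformly_nonsquare {p K : ℝ} (hp : 0 < p) (h : MarkovType X p K)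
    (hK : 4 * K ^ p - 2 ^ (p - 1) < 2 ^ p) :
    ∃ δ : ℝ, 0 < δ ∧ ∀ a b : X, ‖a‖ ≤ 1 → ‖b‖ ≤ 1 →
      ‖(1 / 2 : ℝ) • (a + b)‖ ≤ 1 - δ ∨ ‖(1 / 2 : ℝ) • (a - b)‖ ≤ 1 - δ := by
  set c := max (4 * K ^ p - 2 ^ (p - 1)) 0 with hc
  have hc0 : 0 ≤ c := le_max_right _ _
  have hc2 : c < 2 ^ p := max_lt hK (Real.rpow_pos_of_pos (by norm_num) p)
  set r := c ^ p⁻¹ with hr
  have hr2 : r < 2 := by
    have h1 : c ^ p⁻¹ < ((2 : ℝ) ^ p) ^ p⁻¹ := Real.rpow_lt_rpow hc0 hc2 (inv_pos.mpr hp)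
    rwa [Real.rpow_rpow_inv (by norm_num) hp.ne'] at h1
  refine ⟨1 - r / 2, by linarith, ?_⟩
  intro a b ha hb
  have key := markov_type_parallelogram hp h a b
  have hap : ‖a‖ ^ p ≤ 1 := Real.rpow_le_one (norm_nonneg _) ha hp.le
  have hbp : ‖b‖ ^ p ≤ 1 := Real.rpow_le_one (norm_nonneg _) hb hp.le
  have hap0 : 0 ≤ ‖a‖ ^ p := by positivity
  have hbp0 : 0 ≤ ‖b‖ ^ p := by positivity
  have hS : ‖a + b‖ ^ p + ‖a - b‖ ^ p ≤ 2 * c := by
    calc ‖a + b‖ ^ p + ‖a - b‖ ^ p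
        ≤ (4 * K ^ p - 2 ^ (p - 1)) * (‖a‖ ^ p + ‖b‖ ^ p) := key
      _ ≤ c * (‖a‖ ^ p + ‖b‖ ^ p) :=
          mul_le_mul_of_nonneg_right (le_max_left _ _) (by linarith)
      _ ≤ c * 2 := mul_le_mul_of_nonneg_left (by linarith) hc0
      _ = 2 * c := by ring
  have hhalf : ∀ w : X, ‖w‖ ^ p ≤ c → ‖(1 / 2 : ℝ) • w‖ ≤ 1 - (1 - r / 2) := by
    intro w hw
    have h1 : ‖w‖ ≤ r := by
      have h2 : (‖w‖ ^ p) ^ p⁻¹ ≤ c ^ p⁻¹ :=
        Real.rpow_le_rpow (by positivity) hw (inv_nonneg.mpr hp.le)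
      rwa [Real.rpow_rpow_inv (norm_nonneg _) hp.ne'] at h2
    rw [norm_smul, Real.norm_eq_abs, abs_of_pos (by norm_num : (0 : ℝ) < 1 / 2)]
    linarith
  by_cases h1 : ‖a + b‖ ^ p ≤ c
  · exact Or.inl (hhalf _ h1)
  · refine Or.inr (hhalf _ ?_)
    linarith [not_le.mp h1]

/-- The case `p = 2`, `K = 1`: the parallelogram law. -/
theorem markov_type_two_one_parallelogram (h : MarkovType X 2 1) (x y : X) :
    ‖x + y‖ ^ 2 + ‖x - y‖ ^ 2 = 2 * (‖x‖ ^ 2 + ‖y‖ ^ 2) := by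
  have key : ∀ u w : X, ‖u + w‖ ^ 2 + ‖u - w‖ ^ 2 ≤ 2 * (‖u‖ ^ 2 + ‖w‖ ^ 2) := by
    intro u w
    have h1 := markov_type_parallelogram (p := 2) (K := 1) (by norm_num) h u w
    have e : (4 * (1 : ℝ) ^ (2 : ℝ) - 2 ^ ((2 : ℝ) - 1)) = 2 := by norm_num
    rw [e] at h1
    simpa only [Real.rpow_two] using h1
  apply le_antisymm (key x y)
  have h2 := key (x + y) (x - y)
  have e1 : x + y + (x - y) = (2 : ℝ) • x := by rw [two_smul]; abel
  have e2 : x + y - (x - y) = (2 : ℝ) • y := by rw [two_smul]; abel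
  rw [e1, e2, norm_smul, norm_smul, Real.norm_eq_abs,
    abs_of_pos (by norm_num : (0 : ℝ) < 2)] at h2
  nlinarith

end Vale.Agent.H67.P125
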